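import Mathlib

/-!
# Row 193 (Cannon conjecture): definitions.  FROZEN (owner helper63).  Blueprint: notes193/R193.md
-/

set_option autoImplicit false
open Set Metric Filter Topology MeasureTheory

namespace Crest.Agent.R193

/-- the ultrafilter used for all limits -/
noncomputable abbrev 𝒰 : Filter ℕ := (hyperfilter ℕ : Filter ℕ)

/-- dyadic scale `2⁻ⁿ` -/
noncomputable def sc (n : ℕ) : ℝ := (1 / 2 : ℝ) ^ n

section action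
variable {G : Type} [Group G] {Z : Type} [MetricSpace Z] [MulAction G Z]

/-- `g` is adapted at `(x, r)`:
`d(gy, gz) ≍ r d(y,z) / (max (d(y,x)) r * max (d(z,x)) r)` up to the factor `C`. -/
def Ad (C : ℝ) (g : G) (x : Z) (r : ℝ) : Prop := ∀ y z : Z,
  dist (g • y) (g • z) * (max (dist y x) r * max (dist z x) r) ≤ C * (r * dist y z) ∧
  r * dist y z ≤ C * (dist (g • y) (g • z) * (max (dist y x) r * max (dist z x) r))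

variable (G Z) in
/-- a "hyperbolic action" on a metric sphere -/
structure HA where
  C : ℝ
  θ : ℝ
  len : G → ℕ
  ctr : G → Z
  one_le_C : 1 ≤ C
  θ_pos : 0 < θ
  θ_lt : θ < 1
  len_mul : ∀ g h, len (g * h) ≤ len g + len h
  len_inv : ∀ g, len g⁻¹ = len g
  fin_ball : ∀ R : ℕ, {g | len g ≤ R}.Finite
  ad : ∀ g, Ad C g (ctr g) (θ ^ len g)
  surj : ∀ (x : Z) (n : ℕ), ∃ g, len g = n ∧ dist (ctr g) x ≤ C * θ ^ n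
  dist_le : ∀ x y : Z, dist x y ≤ 1
  sph : Nonempty (Z ≃ₜ OnePoint ℂ)

end action

section cells
variable {Z : Type} [MetricSpace Z]

variable (Z) in
/-- nets and connected cells at all dyadic scales, and doubling -/
structure Cov where
  L : ℝ
  net : ℕ → Finset Z
  cell : ℕ → Z → Set Z
  two_le : 2 ≤ L
  sep : ∀ n, ∀ x ∈ net n, ∀ y ∈ net n, x ≠ y → sc n ≤ dist x y
  dense : ∀ n z, ∃ x ∈ net n, dist z x < sc n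
  isOpen : ∀ n x, IsOpen (cell n x)
  conn : ∀ n x, IsPreconnected (cell n x)
  sub : ∀ n x, ball x (2 * sc n) ⊆ cell n x
  sup : ∀ n x, cell n x ⊆ ball x (L * sc n)
  dbl : ∀ R : ℝ, ∃ N : ℕ, ∀ (x : Z) (r : ℝ) (T : Finset Z), 0 < r →
    (∀ a ∈ T, dist a x < R * r) → (∀ a ∈ T, ∀ b ∈ T, a ≠ b → r ≤ dist a b) → T.card ≤ N

variable (Z) in
/-- complements of balls are connected up to a factor -/
def LLC2 : Prop := ∃ Λ : ℝ, 1 ≤ Λ ∧ ∀ (x : Z) (r : ℝ), 0 < r →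
  ∃ B : Set Z, IsPreconnected B ∧ (ball x (Λ * r))ᶜ ⊆ B ∧ B ⊆ (ball x r)ᶜ

end cells

/-- oscillation -/
noncomputable def osc {X : Type} (v : X → ℝ) (B : Set X) : ℝ := Metric.diam (v '' B)

/-- bounded function -/
def Bdd {X : Type} (v : X → ℝ) : Prop := ∃ M : ℝ, ∀ z, |v z| ≤ M

/-- level sets reach the boundary of `U` -/
def RR {X : Type} [TopologicalSpace X] (v : X → ℝ) (U : Set X) : Prop :=
  ∀ (s : ℝ) (x : X), x ∈ U → x ∈ frontier {z | s < v z} →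
    ¬ connectedComponentIn (frontier {z | s < v z}) x ⊆ U

section energy
variable {Z : Type} [MetricSpace Z]

open Classical in
/-- level-`n` energy of `v` in `W` -/
noncomputable def Cov.En (Γ : Cov Z) (n : ℕ) (v : Z → ℝ) (W : Set Z) : ℝ :=
  ∑ x ∈ (Γ.net n).filter (fun x => Γ.cell n x ⊆ W), osc v (Γ.cell n x) ^ 2

/-- the main estimate (block D) -/
def MainEst (Γ : Cov Z) : Prop := ∃ (m : ℕ) (N : ℝ), 0 ≤ N ∧ ∀ (n k : ℕ) (y : Z) (v : Z → ℝ),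
  n ≤ k → y ∈ Γ.net n → Bdd v → RR v (ball y (2 ^ m * sc n)) →
    osc v (Γ.cell n y) ^ 2 ≤ N * Γ.En k v (ball y (2 ^ m * sc n))

/-- Loewner estimate at bounded relative distance (block L) -/
def LoewG (Γ : Cov Z) : Prop := ∀ t : ℝ, 0 < t → ∃ C c : ℝ, 0 ≤ C ∧ 0 < c ∧
  ∀ (v : Z → ℝ) (E F J : Set Z) (α β R : ℝ) (x : Z) (k : ℕ), Bdd v → α ≤ β →
    IsPreconnected E → IsPreconnected F → IsPreconnected J →
    E ⊆ closure {z | v z ≤ α} → F ⊆ closure {z | β ≤ v z} →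
    (J ∩ E).Nonempty → (J ∩ F).Nonempty → 0 < R → R ≤ diam E → R ≤ diam F →
    J ⊆ ball x (t * R) → sc k ≤ c * R →
      (β - α) ^ 2 ≤ C * Γ.En k v (thickening R J)

/-- Loewner estimate at small relative distance (block L) -/
def LoewL (Γ : Cov Z) : Prop := ∀ ε : ℝ, 0 < ε → ∃ τ : ℝ, 0 < τ ∧
  ∀ (v : Z → ℝ) (E F : Set Z) (α β R : ℝ) (z : Z) (k : ℕ), Bdd v → α ≤ β →
    IsPreconnected E → IsPreconnected F →
    E ⊆ closure {z | v z ≤ α} → F ⊆ closure {z | β ≤ v z} →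
    0 < R → R ≤ diam E → R ≤ diam F →
    (E ∩ ball z (τ * R)).Nonempty → (F ∩ ball z (τ * R)).Nonempty → sc k ≤ τ * R →
      (β - α) ^ 2 ≤ ε * Γ.En k v (ball z R)

open Classical in
/-- level-`k` approximate conformal map `(U, W)` on `ball x₀ ρ` with error `μ` -/
structure LocAt (Γ : Cov Z) (x₀ : Z) (ρ C : ℝ) (k : ℕ) (U W : Z → ℝ) (μ : ℝ) : Prop where
  μ_nonneg : 0 ≤ μ
  bddU : Bdd U
  bddW : Bdd W
  osc_le : ∀ x ∈ Γ.net k, Γ.cell k x ⊆ ball x₀ ρ →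
    osc U (Γ.cell k x) + osc W (Γ.cell k x) ≤ μ
  box : ∀ α β s₁ s₂ : ℝ, α ≤ β → s₁ ≤ s₂ →
    ∑ x ∈ (Γ.net k).filter (fun x => Γ.cell k x ⊆ ball x₀ ρ ∧
        ∃ z ∈ Γ.cell k x, U z ∈ Icc α β ∧ W z ∈ Icc s₁ s₂),
      (osc U (Γ.cell k x) + osc W (Γ.cell k x)) ^ 2 ≤ C * ((β - α + μ) * (s₂ - s₁ + μ))
  tot : Γ.En k U (ball x₀ ρ) + Γ.En k W (ball x₀ ρ) ≤ C
  conn : ∀ x ∈ ball x₀ (ρ / 4), ∀ z ∈ ball x₀ (ρ / 4), ∃ E : Set Z, IsPreconnected E ∧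
    E ⊆ ball x₀ ρ ∧ x ∈ E ∧ (z ∈ E ∨ ρ / 4 ≤ diam E) ∧
    ∀ y ∈ E, |U y - U x| ≤ |U z - U x| + μ ∧ |W y - W x| ≤ |W z - W x| + μ
  escU : ∀ y ∈ ball x₀ (ρ / 4), ∃ F : Set Z, IsPreconnected F ∧ F ⊆ ball x₀ ρ ∧ y ∈ F ∧
    ρ / 4 ≤ diam F ∧ ∀ z ∈ F, |U z - U y| ≤ μ
  escW : ∀ y ∈ ball x₀ (ρ / 4), ∃ F : Set Z, IsPreconnected F ∧ F ⊆ ball x₀ ρ ∧ y ∈ F ∧
    ρ / 4 ≤ diam F ∧ ∀ z ∈ F, |W z - W y| ≤ μ

/-- output of block F -/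
def Loc (Γ : Cov Z) : Prop := ∃ (x₀ : Z) (ρ C : ℝ) (U W : ℕ → Z → ℝ) (μ : ℕ → ℝ),
  0 < ρ ∧ 0 ≤ C ∧ Tendsto μ 𝒰 (𝓝 0) ∧ (∀ᶠ k in 𝒰, LocAt Γ x₀ ρ C k (U k) (W k) (μ k)) ∧
  ∀ r : ℝ, 0 < r → ∃ ε : ℝ, 0 < ε ∧ ∀ᶠ k in 𝒰,
    ∃ a ∈ ball x₀ r, ∃ b ∈ ball x₀ r, ε ≤ |W k a - W k b|

/-- weakly quasisymmetric embedding of `V` into the plane -/
structure QS (φ : Z → ℂ) (V : Set Z) : Prop where
  cont : ContinuousOn φ V
  inj : InjOn φ V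
  big : ∀ t : ℝ, 0 < t → ∃ H : ℝ, 0 < H ∧ ∀ x ∈ V, ∀ y ∈ V, ∀ z ∈ V,
    dist x y ≤ t * dist x z → ‖φ x - φ y‖ ≤ H * ‖φ x - φ z‖

/-- quasisymmetric chart -/
structure QC (φ : Z → ℂ) (V : Set Z) : Prop extends QS φ V where
  isOpen : IsOpen V
  openMap : ∀ O ⊆ V, IsOpen O → IsOpen (φ '' O)
  small : ∀ ε : ℝ, 0 < ε → ∃ t : ℝ, 0 < t ∧ ∀ x ∈ V, ∀ y ∈ V, ∀ z ∈ V,
    dist x y ≤ t * dist x z → ‖φ x - φ y‖ ≤ ε * ‖φ x - φ z‖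

/-- `f ∘ φ` on `V`, zero elsewhere -/
noncomputable def ext (φ : Z → ℂ) (V : Set Z) (f : ℂ → ℝ) : Z → ℝ := V.indicator (fun y => f (φ y))

end energy

/-! ### the finite Riemann mapping theorem on a periodic strip (block FU) -/

/-- the closed strip `0 ≤ im ≤ 1` -/
def strip : Set ℂ := {z | 0 ≤ z.im ∧ z.im ≤ 1}

/-- integer translates of the tiles -/
def tile {ι : Type} (c : ι → Set ℂ) (p : ι × ℤ) : Set ℂ := {z | z - (p.2 : ℂ) ∈ c p.1}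

structure Tiling {ι : Type} (c : ι → Set ℂ) (N₀ : ℕ) : Prop where
  isOpen : ∀ i, IsOpen (c i)
  conn : ∀ i, IsPreconnected (c i)
  bdd : ∀ i, Bornology.IsBounded (c i)
  cover : ∀ z ∈ strip, ∃ p, z ∈ tile c p
  mult : ∀ p, ∃ T : Finset (ι × ℤ), T.card ≤ N₀ ∧
    ∀ p', (tile c p ∩ tile c p').Nonempty → p' ∈ T

/-- `s` is a good level: every tile cut by `s` meets arbitrarily long continua of the level set -/
def GoodLevel {ι : Type} (c : ι → Set ℂ) (w : ℂ → ℝ) (s : ℝ) : Prop :=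
  ∀ p, (∃ a ∈ tile c p, w a ≤ s) → (∃ b ∈ tile c p, s < w b) → ∀ N : ℝ,
    ∃ H : Set ℂ, IsCompact H ∧ IsPreconnected H ∧ H ⊆ frontier {z | s < w z} ∧
      (H ∩ tile c p).Nonempty ∧ ∃ a ∈ H, ∃ b ∈ H, N ≤ b.re - a.re

/-- the part of the output of the finite Riemann mapping theorem that needs small oscillations -/
structure FRMfine {ι : Type} (c : ι → Set ℂ) (K : ℝ) (w u : ℂ → ℝ) (μ : ℝ) : Prop where
  box : ∀ (α β s₁ s₂ : ℝ) (T : Finset (ι × ℤ)), α ≤ β → 1 / 4 ≤ s₁ → s₁ ≤ s₂ → s₂ ≤ 3 / 4 →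
    (∀ p ∈ T, ∃ z ∈ tile c p, u z ∈ Icc α β ∧ w z ∈ Icc s₁ s₂) →
    ∑ p ∈ T, (osc u (tile c p) + osc w (tile c p)) ^ 2 ≤ K * ((β - α + μ) * (s₂ - s₁ + μ))
  conn : ∀ x z : ℂ, w x ∈ Icc (3 / 8 : ℝ) (5 / 8) → w z ∈ Icc (3 / 8 : ℝ) (5 / 8) →
    ∃ E : Set ℂ, IsCompact E ∧ IsPreconnected E ∧ E ⊆ strip ∧ x ∈ E ∧ z ∈ E ∧
      ∀ y ∈ E, |u y - u x| ≤ |u z - u x| + μ ∧ |w y - w x| ≤ |w z - w x| + μ
  escU : ∀ y : ℂ, w y ∈ Icc (3 / 8 : ℝ) (5 / 8) →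
    ∃ F : Set ℂ, IsCompact F ∧ IsPreconnected F ∧ F ⊆ strip ∧ y ∈ F ∧ (∃ b ∈ F, b.im = 0) ∧
      ∀ z ∈ F, |u z - u y| ≤ μ
  escW : ∀ y : ℂ, w y ∈ Icc (3 / 8 : ℝ) (5 / 8) → ∀ N : ℝ,
    ∃ F : Set ℂ, IsCompact F ∧ IsPreconnected F ∧ F ⊆ strip ∧ y ∈ F ∧
      (∃ b ∈ F, N ≤ |b.re - y.re|) ∧ ∀ z ∈ F, |w z - w y| ≤ μ

open Classical in
/-- output of the finite Riemann mapping theorem -/
structure FRMout {ι : Type} [Fintype ι] (c : ι → Set ℂ) (K : ℝ) (w u : ℂ → ℝ) (I : ℝ) : Prop where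
  w_per : ∀ z, w (z + 1) = w z
  w_mem : ∀ z, w z ∈ Icc (0 : ℝ) 1
  w_bot : ∀ z : ℂ, z.im < 0 → w z = 0
  w_top : ∀ z : ℂ, 1 < z.im → w z = 1
  I_eq : I = ∑ i, osc w (c i) ^ 2
  I_pos : 0 < I
  u_per : ∀ z ∈ strip, u (z + 1) = u z + I
  u_bdd : ∀ R : ℝ, ∃ M : ℝ, ∀ z ∈ strip, ‖z‖ ≤ R → |u z| ≤ M
  u_en : ∑ i ∈ Finset.univ.filter (fun i => c i ⊆ strip), osc u (c i) ^ 2 ≤ K * I
  u_osc : ∀ η : ℝ, (∀ i, osc w (c i) ≤ η) → ∀ i, c i ⊆ strip → osc u (c i) ≤ K * η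
  wall : ∀ η : ℝ, (∀ i, osc w (c i) ≤ η) → ∀ α : ℝ, ∃ V : Set ℂ, IsCompact V ∧
    IsPreconnected V ∧ V ⊆ strip ∧ (∃ a ∈ V, a.im = 0) ∧ (∃ b ∈ V, b.im = 1) ∧
    ∀ z ∈ V, |u z - α| ≤ K * η
  good : ∀ s₁ s₂ : ℝ, 0 ≤ s₁ → s₁ < s₂ → s₂ ≤ 1 → ∃ s ∈ Ioo s₁ s₂, GoodLevel c w s
  fine : ∀ η : ℝ, (∀ i, osc w (c i) ≤ η) → K * η ≤ 1 / 16 →
    (∀ i, (∃ a ∈ c i, w a ≤ 7 / 8) → (∃ b ∈ c i, 1 / 8 ≤ w b) → c i ⊆ strip) →
    FRMfine c K w u (K * η)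

/-- statement of the finite Riemann mapping theorem -/
def FRM : Prop := ∀ N₀ : ℕ, ∃ K : ℝ, 1 ≤ K ∧ ∀ (ι : Type) [Fintype ι] (c : ι → Set ℂ),
  Tiling c N₀ → ∃ (w u : ℂ → ℝ) (I : ℝ), FRMout c K w u I

/-! ### analysis in the plane -/

/-- test functions -/
def Tst (Ω : Set ℂ) (f : ℂ → ℝ) : Prop :=
  ContDiff ℝ (⊤ : ℕ∞) f ∧ HasCompactSupport f ∧ tsupport f ⊆ Ω

/-- partial derivatives -/
noncomputable def dx (f : ℂ → ℝ) (z : ℂ) : ℝ := fderiv ℝ f z 1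
noncomputable def dy (f : ℂ → ℝ) (z : ℂ) : ℝ := fderiv ℝ f z Complex.I

/-- Dirichlet energy -/
noncomputable def dir (f : ℂ → ℝ) : ℝ := ∫ z, (dx f z ^ 2 + dy f z ^ 2)

/-- a `G`-invariant symmetric form with an `L^∞` coefficient matrix in the chart (block E) -/
structure Form (G : Type) [Group G] {Z : Type} [MetricSpace Z] [MulAction G Z]
    (φ : Z → ℂ) (V : Set Z) where
  z₀ : ℂ
  r₀ : ℝ
  C : ℝ
  D : (Z → ℝ) → Prop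
  B : (Z → ℝ) → (Z → ℝ) → ℝ
  a₁ : ℂ → ℝ
  a₂ : ℂ → ℝ
  a₃ : ℂ → ℝ
  r₀_pos : 0 < r₀
  C_pos : 0 < C
  sub : ball z₀ r₀ ⊆ φ '' V
  meas : Measurable a₁ ∧ Measurable a₂ ∧ Measurable a₃
  bound : ∀ z, |a₁ z| ≤ C ∧ |a₂ z| ≤ C ∧ |a₃ z| ≤ C
  inv_D : ∀ (g : G) (w : Z → ℝ), D w → D (fun y => w (g • y))
  inv_B : ∀ (g : G) (w w' : Z → ℝ), D w → D w' →
    B (fun y => w (g • y)) (fun y => w' (g • y)) = B w w'
  symm : ∀ w w', D w → D w' → B w w' = B w' w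
  tst_D : ∀ f, Tst (ball z₀ r₀) f → D (ext φ V f)
  rep : ∀ f h, Tst (ball z₀ r₀) f → Tst (ball z₀ r₀) h →
    B (ext φ V f) (ext φ V h) = ∫ z, (a₁ z * (dx f z * dx h z) +
      a₂ z * (dx f z * dy h z + dy f z * dx h z) + a₃ z * (dy f z * dy h z))
  approx : ∀ w, D w → Continuous w → tsupport w ⊆ V ∩ φ ⁻¹' ball z₀ r₀ →
    ∃ f : ℕ → ℂ → ℝ, (∀ j, Tst (ball z₀ r₀) (f j)) ∧
      TendstoUniformly (fun j => ext φ V (f j)) w atTop ∧ 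
      (∀ j : ℕ, dir (f j) ≤ C * (B w w + 1 / ((j : ℝ) + 1))) ∧
      ∀ h, D h → Tendsto (fun j => B (ext φ V (f j)) h) atTop (𝓝 (B w h))

/-- the finite part of a point of the Riemann sphere -/
def cx (p : OnePoint ℂ) : ℂ := OnePoint.rec 0 id p

@[simp] theorem cx_coe (z : ℂ) : cx (z : OnePoint ℂ) = z := rfl
@[simp] theorem cx_infty : cx OnePoint.infty = 0 := rfl

/-- `re f, im f, re f², im f²` are weakly harmonic where `f` is finite -/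
def WeakHarm (f : OnePoint ℂ → OnePoint ℂ) : Prop :=
  ∀ χ : ℂ → ℝ, Tst {z : ℂ | f z ≠ OnePoint.infty} χ →
    ∫ z : ℂ, (cx (f z)).re * Laplacian.laplacian χ z = 0 ∧
    ∫ z : ℂ, (cx (f z)).im * Laplacian.laplacian χ z = 0 ∧
    ∫ z : ℂ, (cx (f z) ^ 2).re * Laplacian.laplacian χ z = 0 ∧
    ∫ z : ℂ, (cx (f z) ^ 2).im * Laplacian.laplacian χ z = 0

/-- homogeneous coordinates -/
def vec (p : OnePoint ℂ) : ℂ × ℂ := OnePoint.rec (1, 0) (fun z => (z, 1)) p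

@[simp] theorem vec_coe (z : ℂ) : vec (z : OnePoint ℂ) = (z, 1) := rfl
@[simp] theorem vec_infty : vec OnePoint.infty = (1, 0) := rfl

/-- Möbius or anti-Möbius map -/
def IsMob (f : OnePoint ℂ → OnePoint ℂ) : Prop := ∃ a b c d : ℂ, a * d - b * c = 1 ∧
  ((∀ p, ∃ t : ℂ, t ≠ 0 ∧ vec (f p) =
      (t * (a * (vec p).1 + b * (vec p).2), t * (c * (vec p).1 + d * (vec p).2))) ∨
   (∀ p, ∃ t : ℂ, t ≠ 0 ∧ vec (f p) =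
      (t * (a * (starRingEnd ℂ) (vec p).1 + b * (starRingEnd ℂ) (vec p).2),
       t * (c * (starRingEnd ℂ) (vec p).1 + d * (starRingEnd ℂ) (vec p).2))))

end Crest.Agent.R193
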